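import Mathlib
import Vale.Agent.Lib.P068.Main

/-!
# P068: matroid intersection for pairs with a finite defect
-/

namespace Vale.Agent.Results.P068.FiniteDefect

open Vale.Agent.Lib.P068

/-- Let `M` and `N` be arbitrary matroids on a common ground set. If some base `B` of `M` contains
a set `J` that is independent in `N` and such that `B \ J` is finite, then `(M, N)` satisfies
intersection. -/
theorem result {α : Type*} (M N : Matroid α) (hE : M.E = N.E) (B J : Set α)
    (hB : M.IsBase B) (hJB : J ⊆ B) (hJ : N.Indep J) (hfin : (B \ J).Finite) :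
    ∃ JM JN : Set α, Disjoint JM JN ∧ M.Indep (JM ∪ JN) ∧ N.Indep (JM ∪ JN) ∧
      M.closure JM ∪ N.closure JN = M.E :=
  satInt_of_finite_defect M N hE hB hJB hJ hfin

end Vale.Agent.Results.P068.FiniteDefect
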