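import Mathlib
import Vale.Agent.Lib.P068.Main

/-!
# P068: matroid intersection for an arbitrary matroid paired with a matroid of finite rank or
finite corank
-/

namespace Vale.Agent.Results.P068.FiniteRankOrCorank

open Vale.Agent.Lib.P068

/-- Let `M` and `N` be arbitrary matroids on a common ground set (of any cardinality). If `N` has
finite rank, or the dual of `N` has finite rank, then `(M, N)` satisfies intersection. -/
theorem result {α : Type*} (M N : Matroid α) (hE : M.E = N.E)
    (h : N.RankFinite ∨ N✶.RankFinite) :
    ∃ JM JN : Set α, Disjoint JM JN ∧ M.Indep (JM ∪ JN) ∧ N.Indep (JM ∪ JN) ∧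
      M.closure JM ∪ N.closure JN = M.E := by
  rcases h with h | h
  · exact satInt_of_rankFinite M N hE
  · exact satInt_of_dual_rankFinite M N hE

end Vale.Agent.Results.P068.FiniteRankOrCorank
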